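import Mathlib

/-!
# P369: the quantum entropy power inequality gives the entropy photon-number inequality
up to the additive constant `1/2 - 1/e` per mode, and no better constant

`g t = (t + 1) log (t + 1) - t log t` is the entropy of the one-mode thermal state with mean
photon number `t`.  With `a = N(ρ_A)`, `b = N(ρ_B)`, `c = N(ρ_C)` (so that `g a = S(ρ_A)/n` etc.)
the quantum entropy power inequality reads `η e^(g a) + (1-η) e^(g b) ≤ e^(g c)`, and the
conjectured entropy photon-number inequality reads `η a + (1-η) b ≤ c`.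

We prove `e t + 1 ≤ e^(g t) ≤ e (t + 1/2)` for `t ≥ 0` and deduce that the first inequality implies
the second one up to the additive constant `1/2 - 1/e`; we also show that this constant is the
best one that follows from the first inequality alone.
-/

namespace Vale.Agent.Results.P369.ApproxEPnI

open Real MeasureTheory intervalIntegral

/-- The entropy of the one-mode thermal state with mean photon number `t`. -/
noncomputable def g (t : ℝ) : ℝ := (t + 1) * Real.log (t + 1) - t * Real.log t

lemma g_integral (t : ℝ) : ∫ s in (0:ℝ)..1, Real.log (t + s) = g t - 1 := by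
  rw [intervalIntegral.integral_comp_add_left (fun x => Real.log x) t, integral_log]
  unfold g
  ring_nf

lemma intervalIntegrable_log_shift (t : ℝ) :
    IntervalIntegrable (fun s => Real.log (t + s)) volume 0 1 := by
  have h := (intervalIntegral.intervalIntegrable_log' (a := t) (b := t + 1)).comp_add_left t
  simpa using h

/-- upper bound: `g t - 1 ≤ log (t + 1/2)` -/
lemma g_le (t : ℝ) (ht : 0 ≤ t) : g t - 1 ≤ Real.log (t + 1 / 2) := by
  rw [← g_integral]
  have hpos : 0 < t + 1 / 2 := by linarith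
  have hint : IntervalIntegrable
      (fun s : ℝ => (Real.log (t + 1 / 2) + t / (t + 1 / 2) - 1) + (1 / (t + 1 / 2)) * s)
      volume 0 1 := by
    apply Continuous.intervalIntegrable
    fun_prop
  have hle := intervalIntegral.integral_mono_on_of_le_Ioo (μ := volume) (zero_le_one' ℝ)
    (intervalIntegrable_log_shift t) hint (by
      intro s hs
      have hs0 : 0 < t + s := by linarith [hs.1]
      have h1 := Real.log_le_sub_one_of_pos (div_pos hs0 hpos)
      rw [Real.log_div hs0.ne' hpos.ne'] at h1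
      have h2 : (t + s) / (t + 1 / 2) = t / (t + 1 / 2) + (1 / (t + 1 / 2)) * s := by
        field_simp
      linarith)
  refine hle.trans (le_of_eq ?_)
  rw [intervalIntegral.integral_add (by apply Continuous.intervalIntegrable; fun_prop)
    (by apply Continuous.intervalIntegrable; fun_prop)]
  rw [intervalIntegral.integral_const, intervalIntegral.integral_const_mul, integral_id]
  simp only [sub_zero, smul_eq_mul, one_mul]
  field_simp
  ring

/-- lower bound: `log (t + 1/e) ≤ g t - 1` -/
lemma le_g (t : ℝ) (ht : 0 ≤ t) : Real.log (t + Real.exp (-1)) ≤ g t - 1 := by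
  rw [← g_integral]
  have hE : 0 < Real.exp 1 := Real.exp_pos 1
  have hEi : Real.exp (-1) = (Real.exp 1)⁻¹ := Real.exp_neg 1
  have hpos : 0 < Real.exp 1 * t + 1 := by positivity
  have hint : IntervalIntegrable
      (fun s : ℝ => (Real.log (t + Real.exp (-1)) + 1 / (Real.exp 1 * t + 1))
        + (1 / (Real.exp 1 * t + 1)) * Real.log s) volume 0 1 := by
    apply IntervalIntegrable.add
    · apply Continuous.intervalIntegrable; fun_prop
    · exact (intervalIntegral.intervalIntegrable_log' (a := 0) (b := 1)).const_mul _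
  have hle := intervalIntegral.integral_mono_on_of_le_Ioo (μ := volume) (zero_le_one' ℝ)
    hint (intervalIntegrable_log_shift t) (by
      intro s hs
      have hs0 : 0 < s := hs.1
      have hts : 0 < t + s := by linarith
      have hte : 0 < t + Real.exp (-1) := by positivity
      -- the weighted mean of `1` and `e s`
      set m : ℝ := (Real.exp 1 * t + Real.exp 1 * s) / (Real.exp 1 * t + 1) with hm
      have hmpos : 0 < m := by positivity
      have h1 := Real.log_le_sub_one_of_pos (div_pos one_pos hmpos)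
      have h2 := Real.log_le_sub_one_of_pos (div_pos (mul_pos hE hs0) hmpos)
      rw [Real.log_div one_ne_zero hmpos.ne', Real.log_one] at h1
      rw [Real.log_div (mul_pos hE hs0).ne' hmpos.ne', Real.log_mul hE.ne' hs0.ne',
        Real.log_exp] at h2
      have h3 : Real.exp 1 * t * (1 / m - 1) + (Real.exp 1 * s / m - 1) = 0 := by
        rw [hm]; field_simp; ring
      have h4 : 1 + Real.log s ≤ (Real.exp 1 * t + 1) * Real.log m := by
        nlinarith [mul_le_mul_of_nonneg_left h1 (mul_nonneg hE.le ht)]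
      have h5 : Real.log m = Real.log (t + s) - Real.log (t + Real.exp (-1)) := by
        have : m = (t + s) / (t + Real.exp (-1)) := by
          rw [hm, hEi]; field_simp
        rw [this, Real.log_div hts.ne' hte.ne']
      rw [h5] at h4
      have h6 : (1 + Real.log s) / (Real.exp 1 * t + 1)
          ≤ Real.log (t + s) - Real.log (t + Real.exp (-1)) := by
        rw [div_le_iff₀ hpos]; linarith
      have h7 : (1 + Real.log s) / (Real.exp 1 * t + 1)
          = 1 / (Real.exp 1 * t + 1) + 1 / (Real.exp 1 * t + 1) * Real.log s := by ring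
      linarith)
  refine le_trans (le_of_eq ?_) hle
  rw [intervalIntegral.integral_add (by apply Continuous.intervalIntegrable; fun_prop)
    ((intervalIntegral.intervalIntegrable_log' (a := 0) (b := 1)).const_mul _)]
  rw [intervalIntegral.integral_const, intervalIntegral.integral_const_mul, integral_log]
  simp only [sub_zero, smul_eq_mul, one_mul, Real.log_one, mul_zero, Real.log_zero, zero_sub,
    add_zero]
  ring

/-- `e^(g t) ≤ e (t + 1/2)` -/
lemma exp_g_le (t : ℝ) (ht : 0 ≤ t) : Real.exp (g t) ≤ Real.exp 1 * (t + 1 / 2) := by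
  have hpos : 0 < t + 1 / 2 := by linarith
  have h := g_le t ht
  have h2 : g t ≤ 1 + Real.log (t + 1 / 2) := by linarith
  calc Real.exp (g t) ≤ Real.exp (1 + Real.log (t + 1 / 2)) := Real.exp_le_exp.mpr h2
    _ = Real.exp 1 * (t + 1 / 2) := by rw [Real.exp_add, Real.exp_log hpos]

/-- `e t + 1 ≤ e^(g t)` -/
lemma le_exp_g (t : ℝ) (ht : 0 ≤ t) : Real.exp 1 * t + 1 ≤ Real.exp (g t) := by
  have hte : 0 < t + Real.exp (-1) := by positivity
  have h := le_g t ht
  have h2 : 1 + Real.log (t + Real.exp (-1)) ≤ g t := by linarith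
  calc Real.exp 1 * t + 1 = Real.exp 1 * (t + Real.exp (-1)) := by
        rw [mul_add, ← Real.exp_add]; simp
    _ = Real.exp (1 + Real.log (t + Real.exp (-1))) := by rw [Real.exp_add, Real.exp_log hte]
    _ ≤ Real.exp (g t) := Real.exp_le_exp.mpr h2

lemma g_zero : g 0 = 0 := by
  unfold g; simp

lemma continuous_g : Continuous g := by
  unfold g
  have h1 : Continuous (fun t : ℝ => (t + 1) * Real.log (t + 1)) :=
    Real.continuous_mul_log.comp (continuous_id.add continuous_const)
  exact h1.sub Real.continuous_mul_log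

/-- refined lower bound: `e (t + 1/2 - 1/(2(2t+1))) ≤ e^(g t)` for `t > 0` -/
lemma le_exp_g_fine (t : ℝ) (ht : 0 < t) :
    Real.exp 1 * (t + 1 / 2 - 1 / (2 * (2 * t + 1))) ≤ Real.exp (g t) := by
  have h1 := Real.le_log_one_add_of_nonneg (x := 1 / t) (by positivity)
  have h2 : Real.log (1 + 1 / t) = Real.log (t + 1) - Real.log t := by
    rw [← Real.log_div (by linarith) ht.ne']
    congr 1
    field_simp
  have h3 : 2 * (1 / t) / (1 / t + 2) = 2 / (2 * t + 1) := by
    field_simp
    ring
  rw [h2, h3] at h1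
  have h4 : 1 + Real.log t + 1 / (2 * t + 1) ≤ g t := by
    unfold g
    have h5 : (t + 1) * (2 / (2 * t + 1)) ≤ (t + 1) * (Real.log (t + 1) - Real.log t) :=
      mul_le_mul_of_nonneg_left h1 (by linarith)
    have h6 : (t + 1) * (2 / (2 * t + 1)) = 1 + 1 / (2 * t + 1) := by
      field_simp; ring
    linarith
  have h7 : 1 + 1 / (2 * t + 1) ≤ Real.exp (1 / (2 * t + 1)) := by
    have := Real.add_one_le_exp (1 / (2 * t + 1)); linarith
  calc Real.exp 1 * (t + 1 / 2 - 1 / (2 * (2 * t + 1)))
      = Real.exp 1 * t * (1 + 1 / (2 * t + 1)) := by field_simp; ring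
    _ ≤ Real.exp 1 * t * Real.exp (1 / (2 * t + 1)) :=
        mul_le_mul_of_nonneg_left h7 (by positivity)
    _ = Real.exp (1 + Real.log t + 1 / (2 * t + 1)) := by
        rw [Real.exp_add, Real.exp_add, Real.exp_log ht]
    _ ≤ Real.exp (g t) := Real.exp_le_exp.mpr h4

/-- The entropy power inequality implies the entropy photon-number inequality up to the
additive constant `1/2 - 1/e`. -/
theorem approx (η a b c : ℝ) (hη0 : 0 ≤ η) (hη1 : η ≤ 1) (ha : 0 ≤ a) (hb : 0 ≤ b) (hc : 0 ≤ c)
    (hq : η * Real.exp (g a) + (1 - η) * Real.exp (g b) ≤ Real.exp (g c)) :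
    η * a + (1 - η) * b - (1 / 2 - Real.exp (-1)) ≤ c := by
  have hE : 0 < Real.exp 1 := Real.exp_pos 1
  have hEi : Real.exp (-1) = (Real.exp 1)⁻¹ := Real.exp_neg 1
  have h1 := exp_g_le c hc
  have h2 := le_exp_g a ha
  have h3 := le_exp_g b hb
  have h4 : η * (Real.exp 1 * a + 1) + (1 - η) * (Real.exp 1 * b + 1)
      ≤ Real.exp 1 * (c + 1 / 2) := by
    have h5 := mul_le_mul_of_nonneg_left h2 hη0
    have h6 := mul_le_mul_of_nonneg_left h3 (sub_nonneg.mpr hη1)
    linarith
  have h7 : Real.exp 1 * (η * a + (1 - η) * b + (Real.exp 1)⁻¹) ≤ Real.exp 1 * (c + 1 / 2) := by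
    have : Real.exp 1 * (η * a + (1 - η) * b + (Real.exp 1)⁻¹)
        = η * (Real.exp 1 * a + 1) + (1 - η) * (Real.exp 1 * b + 1) := by
      field_simp; ring
    rw [this]; exact h4
  have h8 := le_of_mul_le_mul_left h7 hE
  rw [hEi]; linarith

/-- The constant `1/2 - 1/e` is optimal for this implication. -/
theorem sharp (ε : ℝ) (hε : 0 < ε) : ∃ η a c : ℝ, 0 < η ∧ η ≤ 1 ∧ 0 ≤ a ∧ 0 ≤ c ∧
    Real.exp (g c) = η * Real.exp (g a) + (1 - η) * Real.exp (g 0) ∧
    c < η * a + (1 - η) * 0 - (1 / 2 - Real.exp (-1)) + ε := by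
  have hE : 0 < Real.exp 1 := Real.exp_pos 1
  have hEi : Real.exp (-1) = (Real.exp 1)⁻¹ := Real.exp_neg 1
  set η : ℝ := min 1 ε with hη
  have hη0 : 0 < η := lt_min one_pos hε
  have hη1 : η ≤ 1 := min_le_left _ _
  have hηε : η ≤ ε := min_le_right _ _
  set a : ℝ := (1 / ε + 1) / η with ha
  have ha0 : 0 ≤ a := by positivity
  have hηa : η * a = 1 / ε + 1 := by rw [ha]; field_simp
  have hga := le_exp_g a ha0
  have hga1 : 1 ≤ Real.exp (g a) := by nlinarith
  -- intermediate value theorem
  have hcont : ContinuousOn (fun t => Real.exp (g t)) (Set.Icc 0 a) :=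
    (Real.continuous_exp.comp continuous_g).continuousOn
  have hy : η * Real.exp (g a) + (1 - η) * Real.exp (g 0)
      ∈ Set.Icc ((fun t => Real.exp (g t)) 0) ((fun t => Real.exp (g t)) a) := by
    simp only [g_zero, Real.exp_zero, Set.mem_Icc]
    constructor <;> nlinarith
  obtain ⟨c, ⟨hc0, hca⟩, hc⟩ := intermediate_value_Icc ha0 hcont hy
  simp only at hc
  refine ⟨η, a, c, hη0, hη1, ha0, hc0, hc, ?_⟩
  rw [g_zero, Real.exp_zero] at hc
  -- `c` is large
  have h1 := exp_g_le c hc0
  have h2 : η * a ≤ c + 1 / 2 := by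
    have h3 : Real.exp 1 * (η * a) ≤ Real.exp 1 * (c + 1 / 2) := by
      have := mul_le_mul_of_nonneg_left hga hη0.le
      nlinarith
    exact le_of_mul_le_mul_left h3 hE
  have hεi : 0 < 1 / ε := by positivity
  have hcpos : 0 < c := by linarith
  -- upper bound for `c`
  have h4 := le_exp_g_fine c hcpos
  have h5 := exp_g_le a ha0
  have h6 : Real.exp 1 * (c + 1 / 2 - 1 / (2 * (2 * c + 1)))
      ≤ Real.exp 1 * (η * (a + 1 / 2) + (1 - η) * (Real.exp 1)⁻¹) := by
    have h7 : Real.exp 1 * (η * (a + 1 / 2) + (1 - η) * (Real.exp 1)⁻¹)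
        = η * (Real.exp 1 * (a + 1 / 2)) + (1 - η) := by
      field_simp
    rw [h7]
    have := mul_le_mul_of_nonneg_left h5 hη0.le
    linarith
  have h8 := le_of_mul_le_mul_left h6 hE
  have h9 : 1 / (2 * (2 * c + 1)) ≤ ε / 2 := by
    rw [div_le_div_iff₀ (by positivity) (by norm_num)]
    have : 1 ≤ ε * (2 * c + 1) := by
      have h10 : 1 / ε ≤ 2 * c + 1 := by linarith
      have := mul_le_mul_of_nonneg_left h10 hε.le
      rw [mul_one_div_cancel hε.ne'] at this
      exact this
    nlinarith
  have h11 : 0 < (Real.exp 1)⁻¹ := by positivity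
  rw [hEi]
  nlinarith

/-- **Main result.**  (1) For reals `a, b, c ≥ 0` and `0 ≤ η ≤ 1`, the entropy power inequality
`η e^(g a) + (1-η) e^(g b) ≤ e^(g c)` implies `η a + (1-η) b - (1/2 - 1/e) ≤ c`.
(2) The constant `1/2 - 1/e` cannot be lowered: for every `ε > 0` there are `η, a, c` with
equality in the entropy power inequality (with `b = 0`) and
`c < η a + (1-η) 0 - (1/2 - 1/e) + ε`. -/
theorem result :
    (∀ η a b c : ℝ, 0 ≤ η → η ≤ 1 → 0 ≤ a → 0 ≤ b → 0 ≤ c →
      η * Real.exp (g a) + (1 - η) * Real.exp (g b) ≤ Real.exp (g c) →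
      η * a + (1 - η) * b - (1 / 2 - Real.exp (-1)) ≤ c) ∧
    (∀ ε : ℝ, 0 < ε → ∃ η a c : ℝ, 0 < η ∧ η ≤ 1 ∧ 0 ≤ a ∧ 0 ≤ c ∧
      Real.exp (g c) = η * Real.exp (g a) + (1 - η) * Real.exp (g 0) ∧
      c < η * a + (1 - η) * 0 - (1 / 2 - Real.exp (-1)) + ε) :=
  ⟨fun η a b c h0 h1 ha hb hc hq => approx η a b c h0 h1 ha hb hc hq, sharp⟩

end Vale.Agent.Results.P369.ApproxEPnI
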