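import Mathlib
import Vale.Agent.Results.P369.ApproxEPnI

/-!
# P369: the approximate entropy photon-number inequality, plain form

Same theorem as `Vale.Agent.Results.P369.ApproxEPnI.result`, with the thermal entropy function
`g t = (t + 1) log (t + 1) - t log t` written out in the statement.
-/

namespace Vale.Agent.Results.P369.ApproxEPnIPlain

theorem result :
    let g : ℝ → ℝ := fun t => (t + 1) * Real.log (t + 1) - t * Real.log t
    (∀ η a b c : ℝ, 0 ≤ η → η ≤ 1 → 0 ≤ a → 0 ≤ b → 0 ≤ c →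
      η * Real.exp (g a) + (1 - η) * Real.exp (g b) ≤ Real.exp (g c) →
      η * a + (1 - η) * b - (1 / 2 - Real.exp (-1)) ≤ c) ∧
    (∀ ε : ℝ, 0 < ε → ∃ η a c : ℝ, 0 < η ∧ η ≤ 1 ∧ 0 ≤ a ∧ 0 ≤ c ∧
      Real.exp (g c) = η * Real.exp (g a) + (1 - η) * Real.exp (g 0) ∧
      c < η * a + (1 - η) * 0 - (1 / 2 - Real.exp (-1)) + ε) := by
  intro g
  exact Vale.Agent.Results.P369.ApproxEPnI.result

end Vale.Agent.Results.P369.ApproxEPnIPlain
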