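import Mathlib
import Vale.Agent.Results.P369.ApproxEPnI

/-!
# P369: the entropy power inequality gives the entropy photon-number inequality
up to an error that vanishes for large photon numbers

`g t = (t + 1) log (t + 1) - t log t` is the entropy of the one-mode thermal state with mean
photon number `t`.  With `a = N(ρ_A)`, `b = N(ρ_B)`, `c = N(ρ_C)` the quantum entropy power
inequality reads `η e^(g a) + (1-η) e^(g b) ≤ e^(g c)` and the conjectured entropy photon-number
inequality reads `η a + (1-η) b ≤ c`.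

We prove that the first inequality implies the second one up to the additive error
`η δ(a) + (1-η) δ(b)` with `δ(t) = min (1/2 - 1/e) (1/(4 t + 2))`.  This error is at most
`1/2 - 1/e` (the bound of the hand-in `ApproxEPnI`) and tends to `0` when `a` and `b` grow.
-/

namespace Vale.Agent.Results.P369.AsymptoticEPnI

open Vale.Agent.Results.P369.ApproxEPnI

/-- `e (t + 1/2 - δ(t)) ≤ e^(g t)` for `t ≥ 0`. -/
lemma lower (t : ℝ) (ht : 0 ≤ t) :
    Real.exp 1 * (t + 1 / 2 - min (1 / 2 - Real.exp (-1)) (1 / (4 * t + 2))) ≤ Real.exp (g t) := by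
  have hE : 0 < Real.exp 1 := Real.exp_pos 1
  have hEi : Real.exp 1 * Real.exp (-1) = 1 := by rw [← Real.exp_add]; simp
  have h1 : Real.exp 1 * (t + 1 / 2 - (1 / 2 - Real.exp (-1))) ≤ Real.exp (g t) := by
    have := le_exp_g t ht
    have e : Real.exp 1 * (t + 1 / 2 - (1 / 2 - Real.exp (-1))) = Real.exp 1 * t + 1 := by
      have : Real.exp 1 * (t + 1 / 2 - (1 / 2 - Real.exp (-1)))
          = Real.exp 1 * t + Real.exp 1 * Real.exp (-1) := by ring
      rw [this, hEi]
    rw [e]; exact this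
  have h2 : Real.exp 1 * (t + 1 / 2 - 1 / (4 * t + 2)) ≤ Real.exp (g t) := by
    rcases ht.eq_or_lt with h0 | hpos
    · rw [← h0]
      have : Real.exp 1 * ((0 : ℝ) + 1 / 2 - 1 / (4 * 0 + 2)) = 0 := by norm_num
      rw [this]; exact (Real.exp_pos _).le
    · have := le_exp_g_fine t hpos
      have e : (1 : ℝ) / (4 * t + 2) = 1 / (2 * (2 * t + 1)) := by ring_nf
      rw [e]; exact this
  rcases min_choice (1 / 2 - Real.exp (-1)) (1 / (4 * t + 2)) with h | h
  · rw [h]; exact h1
  · rw [h]; exact h2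

theorem result :
    let g : ℝ → ℝ := fun t => (t + 1) * Real.log (t + 1) - t * Real.log t
    ∀ η a b c : ℝ, 0 ≤ η → η ≤ 1 → 0 ≤ a → 0 ≤ b → 0 ≤ c →
      η * Real.exp (g a) + (1 - η) * Real.exp (g b) ≤ Real.exp (g c) →
      η * a + (1 - η) * b
        - (η * min (1 / 2 - Real.exp (-1)) (1 / (4 * a + 2))
            + (1 - η) * min (1 / 2 - Real.exp (-1)) (1 / (4 * b + 2))) ≤ c := by
  intro g0 η a b c hη0 hη1 ha hb hc hq
  have hg : g0 = g := rfl
  rw [hg] at hq
  have hE : 0 < Real.exp 1 := Real.exp_pos 1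
  have h1 := exp_g_le c hc
  have h2 := mul_le_mul_of_nonneg_left (lower a ha) hη0
  have h3 := mul_le_mul_of_nonneg_left (lower b hb) (sub_nonneg.mpr hη1)
  have h4 : Real.exp 1 * (η * a + (1 - η) * b + 1 / 2
        - (η * min (1 / 2 - Real.exp (-1)) (1 / (4 * a + 2))
            + (1 - η) * min (1 / 2 - Real.exp (-1)) (1 / (4 * b + 2))))
      ≤ Real.exp 1 * (c + 1 / 2) := by
    have e : Real.exp 1 * (η * a + (1 - η) * b + 1 / 2
        - (η * min (1 / 2 - Real.exp (-1)) (1 / (4 * a + 2))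
            + (1 - η) * min (1 / 2 - Real.exp (-1)) (1 / (4 * b + 2))))
        = η * (Real.exp 1 * (a + 1 / 2 - min (1 / 2 - Real.exp (-1)) (1 / (4 * a + 2))))
          + (1 - η) * (Real.exp 1 * (b + 1 / 2 - min (1 / 2 - Real.exp (-1)) (1 / (4 * b + 2)))) := by
      ring
    rw [e]; linarith
  have h5 := le_of_mul_le_mul_left h4 hE
  linarith

end Vale.Agent.Results.P369.AsymptoticEPnI
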